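import Mathlib

namespace Vale.Agent.P102

open MeasureTheory Filter Topology Finset

variable {Ω : Type*} [mΩ : MeasurableSpace Ω] {μ : Measure Ω} [IsProbabilityMeasure μ]
  {L : Set (Set Ω)}

theorem cov_le {ι : Type*} (hm : ∀ A ∈ L, MeasurableSet A) (hu : Set.univ ∈ L)
    (hi : ∀ A ∈ L, ∀ B ∈ L, A ∩ B ∈ L) (hs : ∀ A ∈ L, ∀ B ∈ L, A ∪ B ∈ L)
    (ha : ∀ A ∈ L, ∀ B ∈ L, μ.real A * μ.real B ≤ μ.real (A ∩ B)) (B : ι → Set Ω)
    (hB : ∀ i, B i ∈ L) {C : Set Ω} (hC : C ∈ L) (s : Finset ι) : (⋂ i ∈ s, B i) ∈ L ∧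
    μ.real ((⋂ i ∈ s, B i) ∩ C) - μ.real (⋂ i ∈ s, B i) * μ.real C ≤
      ∑ i ∈ s, (μ.real (B i ∩ C) - μ.real (B i) * μ.real C) := by
  classical
  induction s using Finset.induction_on with
  | empty => simpa using hu
  | insert j s hj ih =>
    rw [Finset.set_biInter_insert, sum_insert hj]
    refine ⟨hi _ (hB j) _ ih.1, ?_⟩
    set D := ⋂ i ∈ s, B i
    have h1 := measureReal_union_add_inter (μ := μ) (s := B j) (hm _ ih.1)
    have h2 := measureReal_union_add_inter (μ := μ) (s := B j ∩ C) ((hm _ ih.1).inter (hm _ hC))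
    rw [← Set.union_inter_distrib_right, ← Set.inter_inter_distrib_right] at h2
    have h3 := ha _ (hs _ (hB j) _ ih.1) _ hC
    have h4 : μ.real (B j ∩ D) = μ.real (B j) + μ.real D - μ.real (B j ∪ D) := by linarith
    rw [h4]
    nlinarith [ih.2]

theorem real_sum (u : ℕ → Set Ω) (hd : Pairwise (Function.onFun Disjoint u))
    (hm : ∀ i, MeasurableSet (u i)) : HasSum (fun i => μ.real (u i)) (μ.real (⋃ i, u i)) := by
  have h := measure_iUnion (μ := μ) hd hm
  rw [Measure.real, h, ENNReal.tsum_toReal_eq fun _ => measure_ne_top _ _]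
  exact ENNReal.hasSum_toReal (h ▸ measure_ne_top _ _)

theorem dynkin (hg : mΩ = MeasurableSpace.generateFrom L) (hu : Set.univ ∈ L)
    (hi : ∀ A ∈ L, ∀ B ∈ L, A ∩ B ∈ L) (g : ℕ → Ω → Ω) (hp : ∀ m, MeasurePreserving (g m) μ μ)
    (R : ℕ → Set Ω) (hR : ∀ m, MeasurableSet (R m)) (c : ℝ)
    (h : ∀ t ∈ L, Tendsto (fun m => μ.real (g m ⁻¹' t ∩ R m)) atTop (𝓝 (μ.real t * c)))
    (t : Set Ω) (ht : MeasurableSet t) :
    Tendsto (fun m => μ.real (g m ⁻¹' t ∩ R m)) atTop (𝓝 (μ.real t * c)) := by
  induction t, ht using MeasurableSpace.induction_on_inter hg fun A hA B hB _ => hi A hA B hB with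
  | empty => simp
  | basic t ht => exact h t ht
  | compl t htm ih =>
    have h1 := (h _ hu).sub ih
    rw [← sub_mul, ← measureReal_compl htm] at h1
    refine h1.congr fun m => ?_
    have := measureReal_inter_add_sdiff (μ := μ) (s := R m) ((hp m).measurable htm)
    rw [Set.preimage_univ, Set.univ_inter, Set.preimage_compl, Set.inter_comm _ (R m),
      Set.inter_comm _ (R m), ← Set.sdiff_eq]
    linarith
  | iUnion f hd hfm ih =>
    have h1 := tendsto_tsum_of_dominated_convergence (real_sum (μ := μ) f hd hfm).summable ih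
      (Eventually.of_forall fun m i => by
        rw [Real.norm_of_nonneg measureReal_nonneg, ← (hp m).measureReal_preimage
          (hfm i).nullMeasurableSet]
        exact measureReal_mono Set.inter_subset_left (measure_ne_top _ _))
    rw [((real_sum f hd hfm).mul_right c).tsum_eq] at h1
    refine h1.congr fun m => ?_
    rw [Set.preimage_iUnion, Set.iUnion_inter]
    exact (real_sum _ (fun i j h => ((hd h).preimage _).mono Set.inter_subset_left
      Set.inter_subset_left) fun i => ((hp m).measurable (hfm i)).inter (hR m)).tsum_eq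

theorem multi {ι : Type*} [Fintype ι] (hg : mΩ = MeasurableSpace.generateFrom L)
    (hu : Set.univ ∈ L) (hi : ∀ A ∈ L, ∀ B ∈ L, A ∩ B ∈ L) (hs : ∀ A ∈ L, ∀ B ∈ L, A ∪ B ∈ L)
    (ha : ∀ A ∈ L, ∀ B ∈ L, μ.real A * μ.real B ≤ μ.real (A ∩ B)) (g : ℕ → ι → Ω → Ω)
    (hp : ∀ m i, MeasurePreserving (g m i) μ μ) (hL : ∀ m i, ∀ A ∈ L, g m i ⁻¹' A ∈ L)
    (h2 : ∀ i j, i ≠ j → ∀ A ∈ L, ∀ B ∈ L,
      Tendsto (fun m => μ.real (g m i ⁻¹' A ∩ g m j ⁻¹' B)) atTop (𝓝 (μ.real A * μ.real B)))
    (A : ι → Set Ω) (hA : ∀ i, MeasurableSet (A i)) :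
    Tendsto (fun m => μ.real (⋂ i, g m i ⁻¹' A i)) atTop (𝓝 (∏ i, μ.real (A i))) := by
  classical
  have hm : ∀ A ∈ L, MeasurableSet A := fun A h => hg ▸ MeasurableSpace.measurableSet_generateFrom h
  have base : ∀ A : ι → Set Ω, (∀ i, A i ∈ L) → ∀ s : Finset ι,
      Tendsto (fun m => μ.real (⋂ i ∈ s, g m i ⁻¹' A i)) atTop (𝓝 (∏ i ∈ s, μ.real (A i))) := by
    intro A hA s
    have e : ∀ m i, μ.real (g m i ⁻¹' A i) = μ.real (A i) := fun m i =>
      (hp m i).measureReal_preimage (hm _ (hA i)).nullMeasurableSet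
    induction s using Finset.induction_on with
    | empty => simp
    | insert j s hj ih =>
      have h3 := tendsto_finsetSum s fun i hi =>
        (h2 i j (fun e => hj (e ▸ hi)) _ (hA i) _ (hA j)).sub_const (μ.real (A i) * μ.real (A j))
      simp only [sub_self, sum_const_zero] at h3
      have h4 := (ih.mul_const (μ.real (A j))).add h3
      rw [add_zero] at h4
      rw [prod_insert hj, mul_comm]
      refine tendsto_of_tendsto_of_tendsto_of_le_of_le (ih.mul_const _) h4 (fun m => ?_) fun m => ?_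
      all_goals
        have h5 := cov_le hm hu hi hs ha (fun i => g m i ⁻¹' A i) (fun i => hL m i _ (hA i))
          (hL m j _ (hA j)) s
        have h6 := ha _ h5.1 _ (hL m j _ (hA j))
        simp only [e] at h5 h6
        simp only [Finset.set_biInter_insert, Set.inter_comm (g m j ⁻¹' A j)]
        linarith [h5.2]
  have ext : ∀ s : Finset ι, ∀ A : ι → Set Ω, (∀ i, MeasurableSet (A i)) → (∀ i ∉ s, A i ∈ L) →
      Tendsto (fun m => μ.real (⋂ i, g m i ⁻¹' A i)) atTop (𝓝 (∏ i, μ.real (A i))) := by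
    intro s
    induction s using Finset.induction_on with
    | empty => intro A _ h; simpa using base A (fun i => h i (notMem_empty i)) univ
    | insert j s hj ih =>
      intro A hA h
      have e1 : ∀ (B : ι → Set Ω) m, ⋂ i, g m i ⁻¹' B i =
          g m j ⁻¹' B j ∩ ⋂ i ∈ univ.erase j, g m i ⁻¹' B i := fun B m => by
        rw [← Finset.set_biInter_insert j (univ.erase j) fun i => g m i ⁻¹' B i,
          insert_erase (mem_univ j)]
        simp
      simp only [e1 A]
      rw [← mul_prod_erase _ _ (mem_univ j)]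
      refine dynkin hg hu hi (fun m => g m j) (fun m => hp m j) _
        (fun m => Finset.measurableSet_biInter _ fun i _ => (hp m i).measurable (hA i)) _
        (fun t ht => ?_) _ (hA j)
      have := ih (Function.update A j t) (fun i => by
        by_cases e : i = j
        · rw [e, Function.update_self]; exact hm t ht
        · rw [Function.update_of_ne e]; exact hA i) fun i hi => by
        by_cases e : i = j
        · rw [e, Function.update_self]; exact ht
        · rw [Function.update_of_ne e]; exact h i fun h' => (mem_insert.1 h').elim e hi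
      simp only [e1 (Function.update A j t)] at this
      rw [← mul_prod_erase _ _ (mem_univ j), Function.update_self,
        prod_congr rfl fun i hi => by rw [Function.update_of_ne (ne_of_mem_erase hi)]] at this
      refine this.congr fun m => ?_
      congr 2
      exact Set.iInter₂_congr fun i hi => by rw [Function.update_of_ne (ne_of_mem_erase hi)]
  exact ext univ A hA fun i hi => absurd (mem_univ i) hi

end Vale.Agent.P102
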